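import Vale.Agent.Lib.P162.Unif

namespace Vale.Agent.Results.P162.BeyondCounting

open Vale.Agent.Lib.P162

/-- For a deck of `2^d` cards, `d ≥ 2`: whenever the law after `t` Thorp shuffles is within
total variation distance `1/4` of uniform, `t ≥ 2d - 1`.  (The coin-counting bound gives
only `t ≥ 2d - 2`.) -/
theorem result : ∀ d : ℕ, 2 ≤ d → ∀ t : ℕ,
    tvDist (convPow (thorpLaw (2 ^ (d - 1))) t) (unifLaw (2 ^ (d - 1))) ≤ 1 / 4 →
    2 * d - 1 ≤ t := by
  intro d hd t ht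
  by_contra hlt
  have hm1 : 1 ≤ 2 ^ (d - 1) := Nat.one_le_two_pow
  by_cases hcase : t = (d - 1) + (d - 1)
  · have hm2 : 2 ≤ 2 ^ (d - 1) := by
      calc 2 = 2 ^ 1 := by norm_num
        _ ≤ 2 ^ (d - 1) := Nat.pow_le_pow_right (by norm_num) (by omega)
    have := tv_gt_quarter_balanced (2 ^ (d - 1)) (d - 1) rfl hm2
    rw [hcase] at ht
    linarith
  · have h3 : (2 * 2 ^ (d - 1)) ^ 2 = 2 ^ (2 * d) := by
      rw [← pow_succ', ← pow_mul]
      congr 1
      omega
    have h4 : 8 * 2 ^ t = 2 ^ (t + 3) := by ring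
    have h5 : 8 * 2 ^ t ≤ (2 * 2 ^ (d - 1)) ^ 2 := by
      rw [h3, h4]
      exact Nat.pow_le_pow_right (by norm_num) (by omega)
    have := tv_gt_quarter (2 ^ (d - 1)) t hm1 h5
    linarith

end Vale.Agent.Results.P162.BeyondCounting
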