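import Vale.Agent.Lib.P162.Counting

namespace Vale.Agent.Results.P162.CountingLowerBound

open Vale.Agent.Lib.P162

/-- Explicit lower bounds for the mixing time of the Thorp shuffle.

For a deck of `2m` cards (`m ≥ 1`): whenever the law after `t` shuffles is within total
variation `1/4` of uniform, `t > 2 log₂(2m) - 3`.  For a deck of `2^d` cards (`d ≥ 1`):
whenever the law after `t` shuffles is within total variation `1/4` of uniform, `t ≥ 2d - 2`. -/
theorem result :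
    (∀ m : ℕ, 1 ≤ m → ∀ t : ℕ,
        tvDist (convPow (thorpLaw m) t) (unifLaw m) ≤ 1 / 4 →
        2 * Real.logb 2 (2 * (m : ℝ)) - 3 < (t : ℝ)) ∧
    (∀ d : ℕ, 1 ≤ d → ∀ t : ℕ,
        tvDist (convPow (thorpLaw (2 ^ (d - 1))) t) (unifLaw (2 ^ (d - 1))) ≤ 1 / 4 →
        2 * d - 2 ≤ t) := by
  constructor
  · intro m hm t ht
    have h1 : ¬ (8 * 2 ^ t ≤ (2 * m) ^ 2) := by
      intro h
      have := tv_gt_quarter m t hm h
      linarith
    have h2 : (2 * m) ^ 2 < 2 ^ (t + 3) := by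
      have := Nat.lt_of_not_le h1
      calc (2 * m) ^ 2 < 8 * 2 ^ t := this
        _ = 2 ^ (t + 3) := by ring
    have h3 : ((2 * (m : ℝ)) ^ 2) < (2 : ℝ) ^ ((t + 3 : ℕ) : ℝ) := by
      rw [Real.rpow_natCast]
      exact_mod_cast h2
    have hpos : (0 : ℝ) < 2 * (m : ℝ) := by
      have : (1 : ℝ) ≤ (m : ℝ) := by exact_mod_cast hm
      linarith
    have h4 : Real.logb 2 ((2 * (m : ℝ)) ^ 2) < ((t + 3 : ℕ) : ℝ) := by
      rw [Real.logb_lt_iff_lt_rpow (by norm_num) (by positivity)]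
      exact h3
    have h5 : Real.logb 2 ((2 * (m : ℝ)) ^ 2) = 2 * Real.logb 2 (2 * (m : ℝ)) := by
      rw [← Real.rpow_natCast, Real.logb_rpow_eq_mul_logb_of_pos hpos]
      norm_num
    rw [h5] at h4
    push_cast at h4
    linarith
  · intro d hd t ht
    have hm : 1 ≤ 2 ^ (d - 1) := Nat.one_le_two_pow
    have h1 : ¬ (8 * 2 ^ t ≤ (2 * 2 ^ (d - 1)) ^ 2) := by
      intro h
      have := tv_gt_quarter (2 ^ (d - 1)) t hm h
      linarith
    have h2 : (2 * 2 ^ (d - 1)) ^ 2 < 8 * 2 ^ t := Nat.lt_of_not_le h1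
    have h3 : (2 * 2 ^ (d - 1)) ^ 2 = 2 ^ (2 * d) := by
      rw [← pow_succ', ← pow_mul]
      congr 1
      omega
    have h4 : 8 * 2 ^ t = 2 ^ (t + 3) := by ring
    rw [h3, h4] at h2
    have h5 : 2 * d < t + 3 := (Nat.pow_lt_pow_iff_right (by norm_num)).mp h2
    omega

end Vale.Agent.Results.P162.CountingLowerBound
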